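import Vale.Agent.P062.Main

open Vale.Agent.P062

theorem Vale.Agent.Results.P062.MakerWins.result :
    ∃ σ : List (ℤ × ℤ) → ℤ × ℤ, ∀ β : ℕ → ℤ × ℤ,
      (∀ k < 19, (∀ i ≤ k, β k ≠ makerMove σ β i) ∧ ∀ i < k, β k ≠ β i) →
      (∀ k < 20, ∀ i < k, makerMove σ β k ≠ makerMove σ β i ∧ makerMove σ β k ≠ β i) ∧
      ∃ A : Set (ℤ × ℤ), IsCopy A ∧ ∀ p ∈ A, ∃ k < 20, makerMove σ β k = p := by
  obtain ⟨σ, hσ⟩ := strat 20 ∅ ∅ win20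
  refine ⟨σ, fun β hβ => ?_⟩
  obtain ⟨h1, A, hA, h2⟩ := hσ β (fun k hk =>
    ⟨Finset.notMem_empty _, Finset.notMem_empty _, hβ k (by omega)⟩)
  refine ⟨fun k hk => (h1 k hk).2.2, A, hA, fun p hp => ?_⟩
  rcases h2 p hp with h | h
  · exact absurd h (Finset.notMem_empty _)
  · exact h
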